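import Vale.Agent.P083.Final

namespace Vale.Agent.Results.P083.NoEmbedding
open Vale.Agent.P083

universe u

theorem result : ∃ (A : Type) (_ : CStarAlgebra A), Nontrivial A ∧
    TopologicalSpace.SeparableSpace A ∧
    ∀ (B : Type u) [CStarAlgebra B] [Nontrivial B] (s₁ s₂ : B),
      star s₁ * s₁ = 1 → star s₂ * s₂ = 1 → s₁ * star s₁ + s₂ * star s₂ = 1 →
      (StarAlgebra.adjoin ℂ {s₁, s₂}).topologicalClosure = ⊤ →
      ∀ ω : Ultrafilter ℕ, IsEmpty (A →⋆ₐ[ℂ] Ultrapower B ω) := by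
  obtain ⟨A, _, h1, h2, h⟩ := main.{u}
  exact ⟨A, inferInstance, h1, h2, fun B _ _ s t h3 h4 h5 h6 ω =>
    ⟨fun φ => (exists_homP ω).elim fun ψ => (h B s t h3 h4 h5 h6 ω).false (ψ.comp φ)⟩⟩

end Vale.Agent.Results.P083.NoEmbedding
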